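import Vale.Agent.P107.MainII

namespace Vale.Agent.Results.P107.Global

open Vale.Agent.P107

/-- Every smooth admissible datum of the three-dimensional one-species relativistic
Vlasov-Maxwell system generates a classical solution on `[0,∞)`. -/
theorem result (f₀ : V3 × V3 → ℝ) (E₀ B₀ : V3 → V3) (h : Datum f₀ E₀ B₀) :
    ∃ (f : ℝ → V3 × V3 → ℝ) (E B : ℝ → V3 → V3), GlobalSolution f₀ E₀ B₀ f E B :=
  global_existence f₀ E₀ B₀ h

end Vale.Agent.Results.P107.Global
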